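import Vale.Agent.P068_h2.Final

/-!
Under CH, and more generally under `𝔯 = 𝔠`, both the matroid intersection conjecture and the
packing/covering conjecture fail, already on a countable ground set and for matroids that are
direct sums of countably many uniform matroids.
-/

namespace Vale.Agent.Results.P068.ConsistentFailure

open Vale.Agent.P068

theorem result :
    (Cardinal.continuum.{0} = Cardinal.aleph 1 → SplitHyp) ∧
    (SplitHyp → ∃ M N : Matroid (ℤ × ℕ), M.E = Set.univ ∧ N.E = Set.univ ∧
      IsUniformSum M ∧ IsUniformSum N ∧
      ¬ SatisfiesIntersection M N ∧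
      ¬ HasPackingCovering (fun b : Bool => cond b M N.dual) Set.univ) :=
  ⟨splitHyp_of_CH, counterexample⟩

end Vale.Agent.Results.P068.ConsistentFailure
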